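import Vale.Agent.Lib.P007.CompMain

open Matrix Topology MeasureTheory Filter Set

namespace Vale.Agent.Results.P007.A_all_composite

open Vale.Agent.Lib.P007

/-- Negative answer to Q1 for every composite `n ≥ 4`. There are a totally real field `K` of degree
`n` (`σ` lists all real embeddings), orders `O m` (`m ≥ 1`) with `Z`-bases `b m`, all containing one
fixed `α`, with `Disc (O m) = det (σ_j (b m i))^2 → ∞`, and one compactly supported continuous
`f ≥ 0` on `X_n = SL_n(Z) \ SL_n(R)` with positive integral against every `SL_n(R)`-invariant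
probability measure, but integral zero against every measure concentrated on the lattices
`σ(I) diag(d)`, `I` a fractional `O m`-ideal, `d` an invertible diagonal, hence against each packet
measure of `O m`. -/
theorem result (n : ℕ) (h4 : 4 ≤ n) (hn : ¬ n.Prime) :
    ∃ (K : Type) (_ : Field K) (_ : NumberField K) (σ : Fin n → K →+* ℝ)
      (O : ℕ → Subring K) (b : ℕ → Fin n → K) (α : K),
      Module.finrank ℚ K = n ∧ Function.Bijective σ ∧
      (∀ m, α ∈ O m) ∧
      (∀ m, 0 < m → IsZBasis (b m) (O m : Set K) ∧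
        (Matrix.of fun i j => σ j (b m i)).det ≠ 0 ∧ (packetSet σ (O m)).Nonempty) ∧
      Tendsto (fun m : ℕ => (Matrix.of fun i j => σ j (b m i)).det ^ 2) atTop atTop ∧
      ∃ f : C(X n, ℝ), HasCompactSupport f ∧ (∀ x, 0 ≤ f x) ∧
        (∀ m₀ : Measure (X n), IsProbabilityMeasure m₀ → IsRightInvariant m₀ →
          0 < ∫ x, f x ∂m₀) ∧
        ∀ m, 0 < m → ∀ μ : Measure (X n), (∀ᵐ x ∂μ, x ∈ packetSet σ (O m)) →
          ∫ x, f x ∂μ = 0 := by
  obtain ⟨d, e, hd, he, rfl⟩ := exists_factors h4 hn
  exact main_composite d e hd he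

end Vale.Agent.Results.P007.A_all_composite
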