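import Vale.Agent.Lib.P007.Orders

open Matrix Topology MeasureTheory Filter Set

namespace Vale.Agent.Results.P007.A_subfield

open Vale.Agent.Lib.P007

/-- Negative answer to Q1 for `n = 4`. `K = Q(θ)`, `θ^4 - 4θ^2 + 2 = 0`, is totally real of degree
`4` with the four real embeddings `sigma4`; the orders `O_m = Z[α] + m θ Z[α]` with `α = θ^2 - 2 = √2`
have discriminant `2048 m^4 → ∞`. There is one compactly supported continuous `f ≥ 0` on
`X_4 = SL_4(Z) \ SL_4(R)` with positive integral against every `SL_4(R)`-invariant Borel probability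
measure, but with integral zero against every measure concentrated on lattices `σ(I) diag(d)`, `I` a
fractional `O_m`-ideal, `d` an invertible diagonal, hence against each packet measure of `O_m`. -/
theorem result :
    Module.finrank ℚ K4 = 4 ∧ Function.Bijective sigma4 ∧
    (∀ m : ℕ, 0 < m → alpha4 ∈ orderO m ∧
      IsZBasis (orderBasis m) (orderO m : Set K4) ∧
      ((Matrix.of fun i j => sigma4 j (orderBasis m i)).det) ^ 2 = 2048 * (m : ℝ) ^ 4 ∧
      (packetSet sigma4 (orderO m)).Nonempty) ∧
    ∃ f : C(X 4, ℝ), HasCompactSupport f ∧ (∀ x, 0 ≤ f x) ∧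
      (∀ m₀ : Measure (X 4), IsProbabilityMeasure m₀ → IsRightInvariant m₀ →
        0 < ∫ x, f x ∂m₀) ∧
      ∀ m : ℕ, 0 < m → ∀ μ : Measure (X 4), (∀ᵐ x ∂μ, x ∈ packetSet sigma4 (orderO m)) →
        ∫ x, f x ∂μ = 0 :=
  main_quartic

end Vale.Agent.Results.P007.A_subfield
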