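import Vale.Agent.Lib.P007.Uniform

open Matrix Topology MeasureTheory Filter Set

namespace Vale.Agent.Results.P007.B_uniform

open Vale.Agent.Lib.P007

/-- A necessary condition for equidistribution of packets, uniform over all fields and orders.
For every `n ≥ 1` and `H` there is one compactly supported continuous `f ≥ 0` on `X_n` with positive
integral against every `SL_n(R)`-invariant probability measure and integral zero against every
measure concentrated on the lattices `σ(I) diag(d)` (`I` a fractional `O`-ideal, `d` an invertible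
diagonal), for every totally real field `K` of degree `n` with its embeddings `σ` and every order `O`
of `K` containing a non-integer `α` with all `|σ_j α| ≤ H`.
If `n` is prime, such orders have discriminant bounded in terms of `n` and `H`. -/
theorem result (n : ℕ) (hn : n ≠ 0) (H : ℝ) :
    (∃ f : C(X n, ℝ), HasCompactSupport f ∧ (∀ x, 0 ≤ f x) ∧
      (∀ m₀ : Measure (X n), IsProbabilityMeasure m₀ → IsRightInvariant m₀ →
        0 < ∫ x, f x ∂m₀) ∧
      ∀ (K : Type) [Field K] [NumberField K], Module.finrank ℚ K = n →
        ∀ σ : Fin n → K →+* ℝ, Function.Injective σ →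
        ∀ (O : Subring K) (b : Fin n → K), IsZBasis b (O : Set K) →
        ∀ α ∈ O, α ∉ Set.range (Int.cast : ℤ → K) → (∀ j, |σ j α| ≤ H) →
        ∀ μ : Measure (X n), (∀ᵐ x ∂μ, x ∈ packetSet σ O) → ∫ x, f x ∂μ = 0) ∧
    (n.Prime → ∃ C : ℝ,
      ∀ (K : Type) [Field K] [NumberField K], Module.finrank ℚ K = n →
        ∀ σ : Fin n → K →+* ℝ, Function.Injective σ →
        ∀ (O : Subring K) (b : Fin n → K), IsZBasis b (O : Set K) →
        ∀ α ∈ O, α ∉ Set.range (Int.cast : ℤ → K) → (∀ j, |σ j α| ≤ H) →
          (Matrix.of fun i j => σ j (b i)).det ^ 2 ≤ C) :=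
  ⟨uniform_test_function n hn H, fun hp => prime_disc_bound n hp H⟩

end Vale.Agent.Results.P007.B_uniform
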